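import Mathlib
import Vale.Agent.Lib.P243.H19.Cover

/-!
# A planar estimate for centrally symmetric convex sets (P243)

`planar_tent`: let `D` be a centrally symmetric convex set in the plane, `p ≠ 0`, and suppose the
chord of `D` through the origin in direction `p` has half length at most `T` (in units of `p`).
If `S` contains all points `(1 - θ) q + θ t p` with `q ∈ D`, `|t| ≤ 1`, then
`|S| ≥ ((1 - θ) ^ 2 + θ (1 - θ) / T) |D|`.
-/

open MeasureTheory Set

namespace Vale.Agent.Lib.P243.Sym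

open Vale.Agent.Lib.P243.H19

/-- The linear coordinates `(a, b) ↦ a • n + b • p`, where `n` is the quarter turn of `p`. -/
def turnMap (p : ℝ × ℝ) : (ℝ × ℝ) →ₗ[ℝ] ℝ × ℝ where
  toFun q := (-(q.1 * p.2) + q.2 * p.1, q.1 * p.1 + q.2 * p.2)
  map_add' x y := by ext <;> simp <;> ring
  map_smul' c x := by ext <;> simp <;> ring

theorem turnMap_apply (p : ℝ × ℝ) (a b : ℝ) :
    turnMap p (a, b) = (-(a * p.2) + b * p.1, a * p.1 + b * p.2) := rfl

theorem turnMap_injective (p : ℝ × ℝ) (hp : p ≠ 0) : Function.Injective (turnMap p) := by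
  rw [injective_iff_map_eq_zero]
  rintro ⟨a, b⟩ h
  rw [turnMap_apply, Prod.mk_eq_zero] at h
  obtain ⟨h1, h2⟩ := h
  have hp' : p.1 ^ 2 + p.2 ^ 2 ≠ 0 := by
    intro h0
    apply hp
    have h3 : p.1 = 0 := by nlinarith [sq_nonneg p.1, sq_nonneg p.2]
    have h4 : p.2 = 0 := by nlinarith [sq_nonneg p.1, sq_nonneg p.2]
    exact Prod.ext h3 h4
  have ha : a * (p.1 ^ 2 + p.2 ^ 2) = 0 := by linear_combination (-p.2) * h1 + p.1 * h2
  have hb : b * (p.1 ^ 2 + p.2 ^ 2) = 0 := by linear_combination p.1 * h1 + p.2 * h2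
  rcases mul_eq_zero.1 ha with h | h
  · rcases mul_eq_zero.1 hb with h' | h'
    · simp [h, h']
    · exact absurd h' hp'
  · exact absurd h hp'

theorem planar_tent (D S : Set (ℝ × ℝ)) (hDm : MeasurableSet D) (hSm : MeasurableSet S)
    (hDc : Convex ℝ D) (hsym : ∀ q ∈ D, -q ∈ D)
    (p : ℝ × ℝ) (hp : p ≠ 0) (T : ℝ) (hT0 : 0 < T) (hT : ∀ b : ℝ, b • p ∈ D → b ≤ T)
    (θ : ℝ) (hθ0 : 0 ≤ θ) (hθ1 : θ ≤ 1)
    (hS : ∀ q ∈ D, ∀ t ∈ Icc (-1 : ℝ) 1, (1 - θ) • q + (θ * t) • p ∈ S) :
    ENNReal.ofReal ((1 - θ) ^ 2 + θ * (1 - θ) / T) * volume D ≤ volume S := by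
  rcases eq_or_lt_of_le hθ1 with h1 | h1
  · subst h1; simp
  have hr0 : 0 < 1 - θ := by linarith
  have := isAddHaarMeasure_volume_prod2
  obtain ⟨κ, hκ0, hκ1, hκ⟩ := haar_scaling_affine (volume : Measure (ℝ × ℝ))
    (volume : Measure (ℝ × ℝ)) (turnMap p) (turnMap_injective p hp) rfl
  have hsurj : Function.Surjective (turnMap p) :=
    LinearMap.surjective_of_injective (turnMap_injective p hp)
  have hpre : ∀ X : Set (ℝ × ℝ), volume (turnMap p ⁻¹' X) = κ * volume X := by
    intro X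
    have h := hκ 0 (turnMap p ⁻¹' X)
    simp only [zero_add] at h
    rw [h, image_preimage_eq _ hsurj]
  have hcont : Continuous (turnMap p) := LinearMap.continuous_of_finiteDimensional _
  have hD'm : MeasurableSet (turnMap p ⁻¹' D) := hcont.measurable hDm
  have hS'm : MeasurableSet (turnMap p ⁻¹' S) := hcont.measurable hSm
  suffices h : ENNReal.ofReal ((1 - θ) ^ 2 + θ * (1 - θ) / T) * volume (turnMap p ⁻¹' D)
      ≤ volume (turnMap p ⁻¹' S) by
    rw [hpre, hpre] at h
    apply (ENNReal.mul_le_mul_iff_right hκ0 hκ1).1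
    calc κ * (ENNReal.ofReal ((1 - θ) ^ 2 + θ * (1 - θ) / T) * volume D)
        = ENNReal.ofReal ((1 - θ) ^ 2 + θ * (1 - θ) / T) * (κ * volume D) := by ring
      _ ≤ κ * volume S := h
  have hdiff : ∀ a x y : ℝ, (a, x) ∈ turnMap p ⁻¹' D → (a, y) ∈ turnMap p ⁻¹' D →
      x - y ≤ 2 * T := by
    intro a x y hx hy
    have h1 : turnMap p (a, x) ∈ D := hx
    have h2 : -turnMap p (a, y) ∈ D := hsym _ hy
    have h3 := hDc h1 h2 (show (0:ℝ) ≤ 1 / 2 by norm_num) (show (0:ℝ) ≤ 1 / 2 by norm_num)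
      (by norm_num)
    have h4 : (1 / 2 : ℝ) • turnMap p (a, x) + (1 / 2 : ℝ) • -turnMap p (a, y)
        = ((x - y) / 2) • p := by
      rw [turnMap_apply, turnMap_apply]
      ext <;> simp <;> ring
    rw [h4] at h3
    have := hT _ h3
    linarith
  have hP1 : ∀ a : ℝ, volume (Prod.mk a ⁻¹' (turnMap p ⁻¹' D)) ≤ ENNReal.ofReal (2 * T) := by
    intro a
    refine (Real.volume_le_diam _).trans ?_
    apply Metric.ediam_le
    intro x hx y hy
    rw [edist_dist, Real.dist_eq]
    apply ENNReal.ofReal_le_ofReal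
    rw [abs_le]
    constructor
    · linarith [hdiff a y x hy hx]
    · exact hdiff a x y hx hy
  have hsecb : ∀ a : ℝ, Bornology.IsBounded (Prod.mk a ⁻¹' (turnMap p ⁻¹' D)) := by
    intro a
    rw [Metric.isBounded_iff]
    refine ⟨2 * T, fun x hx y hy => ?_⟩
    rw [Real.dist_eq, abs_le]
    exact ⟨by linarith [hdiff a y x hy hx], hdiff a x y hx hy⟩
  have hD'c : Convex ℝ (turnMap p ⁻¹' D) := hDc.linear_preimage (turnMap p)
  have hP2 : ∀ a : ℝ, (Prod.mk a ⁻¹' (turnMap p ⁻¹' D)).Nonempty →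
      ENNReal.ofReal (1 - θ) * volume (Prod.mk a ⁻¹' (turnMap p ⁻¹' D)) + ENNReal.ofReal θ * 2
        ≤ volume (Prod.mk ((1 - θ) * a) ⁻¹' (turnMap p ⁻¹' S)) := by
    intro a hne
    have h := bm_real (section_convex hD'c a) (convex_Icc (-1 : ℝ) 1) hne ⟨0, by simp⟩ (hsecb a)
      (Metric.isBounded_Icc (-1 : ℝ) 1) hθ0 hθ1
      (S := Prod.mk ((1 - θ) * a) ⁻¹' (turnMap p ⁻¹' S)) (by
        intro x hx y hy
        show turnMap p ((1 - θ) * a, (1 - θ) * x + θ * y) ∈ S
        have h1 := hS (turnMap p (a, x)) hx y hy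
        have h2 : (1 - θ) • turnMap p (a, x) + (θ * y) • p
            = turnMap p ((1 - θ) * a, (1 - θ) * x + θ * y) := by
          rw [turnMap_apply, turnMap_apply]
          ext <;> simp <;> ring
        rw [h2] at h1
        exact h1)
    rw [Real.volume_Icc] at h
    have e : ENNReal.ofReal (1 - -1) = 2 := by norm_num
    rw [e] at h
    exact h
  set W : Set ℝ := {a | volume (Prod.mk a ⁻¹' (turnMap p ⁻¹' D)) ≠ 0} with hW
  have hfm : Measurable fun a : ℝ => volume (Prod.mk a ⁻¹' (turnMap p ⁻¹' D)) :=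
    measurable_measure_prodMk_left hD'm
  have hgm : Measurable fun a : ℝ => volume (Prod.mk a ⁻¹' (turnMap p ⁻¹' S)) :=
    measurable_measure_prodMk_left hS'm
  have hWm : MeasurableSet W := by
    have : W = (fun a : ℝ => volume (Prod.mk a ⁻¹' (turnMap p ⁻¹' D))) ⁻¹' {0}ᶜ := by
      ext a; simp [hW]
    rw [this]
    exact hfm (measurableSet_singleton 0).compl
  have hvD : volume (turnMap p ⁻¹' D)
      = ∫⁻ a, volume (Prod.mk a ⁻¹' (turnMap p ⁻¹' D)) := by
    rw [Measure.volume_eq_prod, Measure.prod_apply hD'm]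
  have hvS : volume (turnMap p ⁻¹' S)
      = ∫⁻ a, volume (Prod.mk a ⁻¹' (turnMap p ⁻¹' S)) := by
    rw [Measure.volume_eq_prod, Measure.prod_apply hS'm]
  have hD'le : volume (turnMap p ⁻¹' D) ≤ ENNReal.ofReal (2 * T) * volume W := by
    rw [hvD]
    calc ∫⁻ a, volume (Prod.mk a ⁻¹' (turnMap p ⁻¹' D))
        ≤ ∫⁻ a, W.indicator (fun _ => ENNReal.ofReal (2 * T)) a := by
          apply lintegral_mono
          intro a
          beta_reduce
          by_cases ha : a ∈ W
          · rw [indicator_of_mem ha]; exact hP1 a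
          · rw [indicator_of_notMem ha]
            have : volume (Prod.mk a ⁻¹' (turnMap p ⁻¹' D)) = 0 := by
              by_contra h; exact ha h
            rw [this]
      _ = ENNReal.ofReal (2 * T) * volume W := by
          rw [lintegral_indicator hWm, setLIntegral_const]
  have hcv : ∫⁻ a, volume (Prod.mk a ⁻¹' (turnMap p ⁻¹' S))
      = ENNReal.ofReal (1 - θ)
        * ∫⁻ a, volume (Prod.mk ((1 - θ) * a) ⁻¹' (turnMap p ⁻¹' S)) := by
    have hmap := Real.map_volume_mul_left (ne_of_gt hr0)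
    have h1 : ∫⁻ a, volume (Prod.mk ((1 - θ) * a) ⁻¹' (turnMap p ⁻¹' S))
        = ∫⁻ y, volume (Prod.mk y ⁻¹' (turnMap p ⁻¹' S))
          ∂(Measure.map (fun x => (1 - θ) * x) volume) := by
      rw [lintegral_map hgm (measurable_const_mul _)]
    rw [h1, hmap, lintegral_smul_measure, smul_eq_mul, ← mul_assoc, ← ENNReal.ofReal_mul hr0.le,
      abs_of_pos (inv_pos.2 hr0), mul_inv_cancel₀ hr0.ne', ENNReal.ofReal_one, one_mul]
  have hlow : ENNReal.ofReal (1 - θ) * volume (turnMap p ⁻¹' D) + ENNReal.ofReal θ * 2 * volume W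
      ≤ ∫⁻ a, volume (Prod.mk ((1 - θ) * a) ⁻¹' (turnMap p ⁻¹' S)) := by
    calc ENNReal.ofReal (1 - θ) * volume (turnMap p ⁻¹' D) + ENNReal.ofReal θ * 2 * volume W
        = ∫⁻ a, (ENNReal.ofReal (1 - θ) * volume (Prod.mk a ⁻¹' (turnMap p ⁻¹' D))
            + W.indicator (fun _ => ENNReal.ofReal θ * 2) a) := by
          rw [lintegral_add_left (hfm.const_mul _), lintegral_const_mul _ hfm, ← hvD,
            lintegral_indicator hWm, setLIntegral_const]
      _ ≤ ∫⁻ a, volume (Prod.mk ((1 - θ) * a) ⁻¹' (turnMap p ⁻¹' S)) := by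
          apply lintegral_mono
          intro a
          beta_reduce
          by_cases ha : a ∈ W
          · rw [indicator_of_mem ha]
            apply hP2 a
            by_contra hne
            rw [not_nonempty_iff_eq_empty] at hne
            apply ha
            rw [hne]; simp
          · rw [indicator_of_notMem ha]
            have : volume (Prod.mk a ⁻¹' (turnMap p ⁻¹' D)) = 0 := by
              by_contra h; exact ha h
            rw [this]; simp
  rw [hvS, hcv]
  have e1 : ENNReal.ofReal ((1 - θ) ^ 2 + θ * (1 - θ) / T)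
      = ENNReal.ofReal (1 - θ) * (ENNReal.ofReal (1 - θ) + ENNReal.ofReal (θ / T)) := by
    rw [← ENNReal.ofReal_add hr0.le (div_nonneg hθ0 hT0.le), ← ENNReal.ofReal_mul hr0.le]
    congr 1
    field_simp
  rw [e1, mul_assoc]
  gcongr
  refine le_trans ?_ hlow
  rw [add_mul]
  refine add_le_add le_rfl ?_
  calc ENNReal.ofReal (θ / T) * volume (turnMap p ⁻¹' D)
      ≤ ENNReal.ofReal (θ / T) * (ENNReal.ofReal (2 * T) * volume W) := by gcongr
    _ = ENNReal.ofReal θ * 2 * volume W := by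
        rw [← mul_assoc, ← ENNReal.ofReal_mul (div_nonneg hθ0 hT0.le)]
        have e2 : θ / T * (2 * T) = θ * 2 := by field_simp
        rw [e2, ENNReal.ofReal_mul hθ0]
        norm_num

end Vale.Agent.Lib.P243.Sym
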