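import Mathlib
import Vale.Agent.Lib.P243.Sym.Plane

/-!
# The tent inequality for centrally symmetric convex bodies (P243)

`tent`: let `K ⊆ (ℝ × ℝ) × ℝ` be a centrally symmetric compact convex set with shadow
`D = Prod.fst '' K`, let `p ≠ 0` and let `T ≥ 1` bound the parameters `b` with `b • p ∈ D`. Then
`chordLen K p * (1 / 3 + 1 / (6 T)) * |D| ≤ vol K`.
-/

open MeasureTheory Set

namespace Vale.Agent.Lib.P243.Sym

open Vale.Agent.Lib.P243.H19

theorem lintegral_poly (c : ℝ) (hc : 0 ≤ c) :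
    ∫⁻ θ in Ioo (0:ℝ) 1, ENNReal.ofReal ((1 - θ) ^ 2 + θ * (1 - θ) * c)
      = ENNReal.ofReal (1 / 3 + c / 6) := by
  have hnn : ∀ θ ∈ Ioo (0:ℝ) 1, 0 ≤ (1 - θ) ^ 2 + θ * (1 - θ) * c := by
    intro θ hθ
    have h1 : 0 ≤ θ * (1 - θ) := mul_nonneg hθ.1.le (by linarith [hθ.2])
    have h2 := mul_nonneg h1 hc
    nlinarith [sq_nonneg (1 - θ)]
  have hcont : Continuous fun θ : ℝ => (1 - θ) ^ 2 + θ * (1 - θ) * c := by fun_prop
  rw [← ofReal_integral_eq_lintegral_ofReal]
  · congr 1
    rw [← integral_Ioc_eq_integral_Ioo, ← intervalIntegral.integral_of_le zero_le_one]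
    have e : ∀ θ : ℝ, (1 - θ) ^ 2 + θ * (1 - θ) * c = 1 + (c - 2) * θ + (1 - c) * θ ^ 2 := by
      intro θ; ring
    simp_rw [e]
    have hderiv : ∀ x ∈ uIcc (0:ℝ) 1,
        HasDerivAt (fun θ : ℝ => θ + (c - 2) * (θ ^ 2 / 2) + (1 - c) * (θ ^ 3 / 3))
          (1 + (c - 2) * x + (1 - c) * x ^ 2) x := by
      intro x _
      have h1 := hasDerivAt_id x
      have h2 := ((hasDerivAt_pow 2 x).div_const 2).const_mul (c - 2)
      have h3 := ((hasDerivAt_pow 3 x).div_const 3).const_mul (1 - c)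
      have h4 : HasDerivAt (fun θ : ℝ => θ + (c - 2) * (θ ^ 2 / 2) + (1 - c) * (θ ^ 3 / 3))
          (1 + (c - 2) * (((2:ℕ) : ℝ) * x ^ (2 - 1) / 2)
            + (1 - c) * (((3:ℕ) : ℝ) * x ^ (3 - 1) / 3)) x :=
        (h1.add h2).add h3
      refine h4.congr_deriv ?_
      norm_num
    rw [intervalIntegral.integral_eq_sub_of_hasDerivAt hderiv]
    · norm_num
      ring
    · exact Continuous.intervalIntegrable (by fun_prop) _ _
  · exact (hcont.integrableOn_Icc (a := 0) (b := 1)).mono_set Ioo_subset_Icc_self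
  · exact (ae_restrict_iff' measurableSet_Ioo).2 (Filter.Eventually.of_forall hnn)

theorem chordLen_neg {K : Set ((ℝ × ℝ) × ℝ)} (hsym : ∀ x ∈ K, -x ∈ K) (p : ℝ × ℝ) :
    chordLen K (-p) = chordLen K p := by
  unfold chordLen
  have h : Prod.mk (-p) ⁻¹' K = Neg.neg ⁻¹' (Prod.mk p ⁻¹' K) := by
    ext z
    simp only [mem_preimage]
    constructor
    · intro hz
      have := hsym _ hz
      simpa using this
    · intro hz
      have := hsym _ hz
      simpa using this
  rw [h, Measure.measure_preimage_neg]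

theorem shadow_symm {K : Set ((ℝ × ℝ) × ℝ)} (hsym : ∀ x ∈ K, -x ∈ K) :
    ∀ q ∈ Prod.fst '' K, -q ∈ Prod.fst '' K := by
  rintro _ ⟨x, hx, rfl⟩
  exact ⟨-x, hsym x hx, rfl⟩

theorem shadow_convex {K : Set ((ℝ × ℝ) × ℝ)} (hK : Convex ℝ K) : Convex ℝ (Prod.fst '' K) := by
  have := hK.linear_image (LinearMap.fst ℝ (ℝ × ℝ) ℝ)
  simpa using this

/-- along the segment from `-p` to `p` the chords are at least as long as the chord over `p` -/
theorem chordLen_segment {K : Set ((ℝ × ℝ) × ℝ)} (hKc : IsCompact K) (hK : Convex ℝ K)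
    (hsym : ∀ x ∈ K, -x ∈ K) (p : ℝ × ℝ) (hpos : 0 < chordLen K p) (t : ℝ)
    (ht : t ∈ Icc (-1 : ℝ) 1) : chordLen K p ≤ chordLen K (t • p) := by
  have hpne : (Prod.mk p ⁻¹' K).Nonempty := nonempty_of_chordLen_pos hpos
  have hmne : (Prod.mk (-p) ⁻¹' K).Nonempty := by
    apply nonempty_of_chordLen_pos
    rw [chordLen_neg hsym]
    exact hpos
  have h := chordLen_concave hK hKc.isBounded (l := (1 - t) / 2) (by linarith [ht.2])
    (by linarith [ht.1]) p (-p) hpne hmne
  rw [chordLen_neg hsym] at h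
  have e : (1 - (1 - t) / 2) • p + ((1 - t) / 2) • (-p) = t • p := by
    module
  rw [e] at h
  linarith

theorem tent (K : Set ((ℝ × ℝ) × ℝ)) (hKc : IsCompact K) (hK : Convex ℝ K)
    (hsym : ∀ x ∈ K, -x ∈ K) (p : ℝ × ℝ) (hp : p ≠ 0)
    (T : ℝ) (hT1 : 1 ≤ T) (hT : ∀ b : ℝ, b • p ∈ Prod.fst '' K → b ≤ T) :
    ENNReal.ofReal (chordLen K p * (1 / 3 + 1 / (6 * T))) * volume (Prod.fst '' K)
      ≤ volume K := by
  have hKm : MeasurableSet K := hKc.measurableSet
  have hKb : Bornology.IsBounded K := hKc.isBounded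
  have hT0 : 0 < T := by linarith
  rcases (chordLen_nonneg K p).eq_or_lt with h0 | hLpos
  · rw [← h0]; simp
  have hDc : IsCompact (Prod.fst '' K) := hKc.image continuous_fst
  have hDm : MeasurableSet (Prod.fst '' K) := hDc.measurableSet
  have hDconv : Convex ℝ (Prod.fst '' K) := shadow_convex hK
  have hDsym := shadow_symm hsym
  have hlevel : ∀ θ ∈ Ioo (0:ℝ) 1,
      ENNReal.ofReal ((1 - θ) ^ 2 + θ * (1 - θ) * (1 / T)) * volume (Prod.fst '' K)
        ≤ volume {q | θ ≤ chordLen K q / chordLen K p} := by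
    intro θ hθ
    have hSm : MeasurableSet {q | θ ≤ chordLen K q / chordLen K p} :=
      measurableSet_le measurable_const ((chordLen_measurable hKm).div_const _)
    have h := planar_tent (Prod.fst '' K) {q | θ ≤ chordLen K q / chordLen K p} hDm hSm hDconv
      hDsym p hp T hT0 hT θ hθ.1.le hθ.2.le (by
        rintro q ⟨x, hx, rfl⟩ t ht
        show θ ≤ chordLen K ((1 - θ) • x.1 + (θ * t) • p) / chordLen K p
        rw [le_div_iff₀ hLpos]
        have hq : (Prod.mk x.1 ⁻¹' K).Nonempty := ⟨x.2, hx⟩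
        have h2 := chordLen_segment hKc hK hsym p hLpos t ht
        have htp : (Prod.mk (t • p) ⁻¹' K).Nonempty :=
          nonempty_of_chordLen_pos (lt_of_lt_of_le hLpos h2)
        have h := chordLen_concave hK hKb hθ.1.le hθ.2.le x.1 (t • p) hq htp
        rw [smul_smul] at h
        have h1 := chordLen_nonneg K x.1
        have h3 : 0 ≤ (1 - θ) * chordLen K x.1 := mul_nonneg (by linarith [hθ.2]) h1
        have h4 : θ * chordLen K p ≤ θ * chordLen K (t • p) :=
          mul_le_mul_of_nonneg_left h2 hθ.1.le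
        linarith)
    have e : (1 - θ) ^ 2 + θ * (1 - θ) * (1 / T) = (1 - θ) ^ 2 + θ * (1 - θ) / T := by ring
    rw [e]
    exact h
  have hlc : ENNReal.ofReal (1 / chordLen K p) * volume K
      = ∫⁻ θ in Ioi (0:ℝ), volume {q | θ ≤ chordLen K q / chordLen K p} := by
    rw [← lintegral_chordLen hKm hKb,
      ← lintegral_const_mul _ (chordLen_measurable hKm).ennreal_ofReal,
      ← lintegral_eq_lintegral_meas_le volume
        (Filter.Eventually.of_forall fun q => div_nonneg (chordLen_nonneg K q) hLpos.le)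
        ((chordLen_measurable hKm).div_const _).aemeasurable]
    congr 1
    funext q
    rw [← ENNReal.ofReal_mul (by positivity)]
    congr 1
    field_simp
  have hint : ENNReal.ofReal (1 / 3 + 1 / T / 6) * volume (Prod.fst '' K)
      ≤ ENNReal.ofReal (1 / chordLen K p) * volume K := by
    rw [hlc, ← lintegral_poly (1 / T) (by positivity),
      ← lintegral_mul_const' _ _ hDc.isBounded.measure_lt_top.ne]
    calc ∫⁻ θ in Ioo (0:ℝ) 1,
          ENNReal.ofReal ((1 - θ) ^ 2 + θ * (1 - θ) * (1 / T)) * volume (Prod.fst '' K)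
        ≤ ∫⁻ θ in Ioo (0:ℝ) 1, volume {q | θ ≤ chordLen K q / chordLen K p} := by
          apply setLIntegral_mono' measurableSet_Ioo
          intro θ hθ
          exact hlevel θ hθ
      _ ≤ ∫⁻ θ in Ioi (0:ℝ), volume {q | θ ≤ chordLen K q / chordLen K p} :=
          lintegral_mono_set Ioo_subset_Ioi_self
  calc ENNReal.ofReal (chordLen K p * (1 / 3 + 1 / (6 * T))) * volume (Prod.fst '' K)
      = ENNReal.ofReal (chordLen K p)
        * (ENNReal.ofReal (1 / 3 + 1 / T / 6) * volume (Prod.fst '' K)) := by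
        rw [← mul_assoc, ← ENNReal.ofReal_mul hLpos.le]
        congr 2
        field_simp
    _ ≤ ENNReal.ofReal (chordLen K p) * (ENNReal.ofReal (1 / chordLen K p) * volume K) := by
        gcongr
    _ = volume K := by
        rw [← mul_assoc, ← ENNReal.ofReal_mul hLpos.le, mul_one_div_cancel hLpos.ne',
          ENNReal.ofReal_one, one_mul]

end Vale.Agent.Lib.P243.Sym
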