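import Mathlib
import Vale.Agent.Lib.P243.Sym.Tent

/-!
# Fibers of homothetic copies and the weighted cylinder bound (P243)

For a centrally symmetric compact convex `K ⊆ (ℝ × ℝ) × ℝ` and `0 < s ≤ 1`, `shrink s K` is the
homothetic copy `s K`. `fiber_diff_bound` bounds the length of the part of a vertical chord of `K`
outside `s K`, and `cyl_bound` is the resulting bound for the weighted volume of a vertical
cylinder.
-/

open MeasureTheory Set

namespace Vale.Agent.Lib.P243.Sym

open Vale.Agent.Lib.P243.H19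

/-- The homothetic copy `s K` of `K` (for `s > 0`): the set of `x` with `s⁻¹ x ∈ K`. -/
def shrink {E : Type*} [AddCommGroup E] [Module ℝ E] (s : ℝ) (K : Set E) : Set E :=
  {x | s⁻¹ • x ∈ K}

theorem shrink_subset {E : Type*} [AddCommGroup E] [Module ℝ E] {K : Set E} (hK : Convex ℝ K)
    (h0 : (0 : E) ∈ K) {s : ℝ} (hs0 : 0 < s) (hs1 : s ≤ 1) : shrink s K ⊆ K := by
  intro x hx
  have hx' : s⁻¹ • x ∈ K := hx
  have h := hK hx' h0 hs0.le (show (0:ℝ) ≤ 1 - s by linarith) (by ring)
  have e : s • s⁻¹ • x + (1 - s) • (0 : E) = x := by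
    rw [smul_zero, add_zero, smul_smul, mul_inv_cancel₀ hs0.ne', one_smul]
  rwa [e] at h

theorem zero_mem_of_symm {E : Type*} [AddCommGroup E] [Module ℝ E] {K : Set E}
    (hK : Convex ℝ K) (hsym : ∀ x ∈ K, -x ∈ K) (hne : K.Nonempty) : (0 : E) ∈ K := by
  obtain ⟨x, hx⟩ := hne
  have h := hK hx (hsym x hx) (show (0:ℝ) ≤ 1 / 2 by norm_num) (show (0:ℝ) ≤ 1 / 2 by norm_num)
    (by norm_num)
  have e : (1 / 2 : ℝ) • x + (1 / 2 : ℝ) • -x = 0 := by
    rw [smul_neg, add_neg_cancel]
  rwa [e] at h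

theorem shrink_measurable {K : Set ((ℝ × ℝ) × ℝ)} (hKc : IsCompact K) (s : ℝ) :
    MeasurableSet (shrink s K) := by
  have h : IsClosed (shrink s K) :=
    hKc.isClosed.preimage (continuous_const_smul s⁻¹)
  exact h.measurableSet

theorem fiber_shrink (K : Set ((ℝ × ℝ) × ℝ)) (s : ℝ) (hs : 0 < s) (p : ℝ × ℝ) :
    volume (Prod.mk p ⁻¹' shrink s K)
      = ENNReal.ofReal s * volume (Prod.mk (s⁻¹ • p) ⁻¹' K) := by
  have h : Prod.mk p ⁻¹' shrink s K
      = (fun z : ℝ => s⁻¹ * z) ⁻¹' (Prod.mk (s⁻¹ • p) ⁻¹' K) := by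
    ext z
    simp only [mem_preimage, shrink, mem_ofPred_eq, Prod.smul_mk, smul_eq_mul]
  rw [h, Real.volume_preimage_mul_left (inv_ne_zero hs.ne'), inv_inv, abs_of_pos hs]

/-- The part of the chord of `K` over `p` that lies outside the homothetic copy `s K`. -/
theorem fiber_diff_bound (K : Set ((ℝ × ℝ) × ℝ)) (hKc : IsCompact K) (hK : Convex ℝ K)
    (h0 : (0 : (ℝ × ℝ) × ℝ) ∈ K) (p : ℝ × ℝ) (hpD : p ∈ Prod.fst '' K)
    (T : ℝ) (hT1 : 1 ≤ T) (hTD : T • p ∈ Prod.fst '' K) (s : ℝ) (hs0 : 0 < s) (hs1 : s ≤ 1) :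
    volume (Prod.mk p ⁻¹' (K \ shrink s K))
      ≤ ENNReal.ofReal (chordLen K p * (if s * T ≤ 1 then 1 else (1 - s) * T / (T - 1))) := by
  have hKb := hKc.isBounded
  have hfull : volume (Prod.mk p ⁻¹' K) = ENNReal.ofReal (chordLen K p) :=
    (ENNReal.ofReal_toReal (chord_volume_ne_top hKb p)).symm
  split_ifs with hsT
  · rw [mul_one, ← hfull]
    exact measure_mono (preimage_mono sdiff_subset)
  · have hsT := not_le.1 hsT
    have hT1' : 1 < T := by nlinarith
    have hpne : (Prod.mk p ⁻¹' K).Nonempty := by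
      obtain ⟨x, hx, rfl⟩ := hpD
      exact ⟨x.2, hx⟩
    have hTne : (Prod.mk (T • p) ⁻¹' K).Nonempty := by
      obtain ⟨x, hx, hxe⟩ := hTD
      refine ⟨x.2, ?_⟩
      show (T • p, x.2) ∈ K
      rw [← hxe]
      exact hx
    have hsinv : 1 ≤ s⁻¹ := (one_le_inv₀ hs0).2 hs1
    have hsinvT : s⁻¹ < T := by
      rw [inv_eq_one_div, div_lt_iff₀ hs0]
      linarith
    have hl0 : 0 ≤ (s⁻¹ - 1) / (T - 1) := div_nonneg (by linarith) (by linarith)
    have hl1 : (s⁻¹ - 1) / (T - 1) ≤ 1 := by
      rw [div_le_one (by linarith)]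
      linarith
    have hconc := chordLen_concave hK hKb hl0 hl1 p (T • p) hpne hTne
    have e : (1 - (s⁻¹ - 1) / (T - 1)) • p + ((s⁻¹ - 1) / (T - 1)) • T • p = s⁻¹ • p := by
      rw [smul_smul, ← add_smul]
      congr 1
      have : T - 1 ≠ 0 := by linarith
      field_simp
      ring
    rw [e] at hconc
    have hTnn := chordLen_nonneg K (T • p)
    have hlow : (1 - (s⁻¹ - 1) / (T - 1)) * chordLen K p ≤ chordLen K (s⁻¹ • p) := by
      nlinarith [mul_nonneg hl0 hTnn]
    have hsubK : shrink s K ⊆ K := shrink_subset hK h0 hs0 hs1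
    have hshm : MeasurableSet (shrink s K) := shrink_measurable hKc s
    have hd : volume (Prod.mk p ⁻¹' (K \ shrink s K))
        = volume (Prod.mk p ⁻¹' K) - volume (Prod.mk p ⁻¹' shrink s K) := by
      rw [preimage_sdiff]
      exact measure_sdiff (preimage_mono hsubK) (measurable_prodMk_left hshm).nullMeasurableSet
        (ne_top_of_le_ne_top (chord_volume_ne_top hKb p) (measure_mono (preimage_mono hsubK)))
    rw [hd, hfull, fiber_shrink K s hs0 p]
    have hnn : 0 ≤ s * ((1 - (s⁻¹ - 1) / (T - 1)) * chordLen K p) :=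
      mul_nonneg hs0.le (mul_nonneg (by linarith) (chordLen_nonneg K p))
    have hsh : ENNReal.ofReal (s * ((1 - (s⁻¹ - 1) / (T - 1)) * chordLen K p))
        ≤ ENNReal.ofReal s * volume (Prod.mk (s⁻¹ • p) ⁻¹' K) := by
      rw [ENNReal.ofReal_mul hs0.le]
      gcongr
      rw [← ENNReal.ofReal_toReal (chord_volume_ne_top hKb (s⁻¹ • p))]
      exact ENNReal.ofReal_le_ofReal hlow
    calc ENNReal.ofReal (chordLen K p) - ENNReal.ofReal s * volume (Prod.mk (s⁻¹ • p) ⁻¹' K)
        ≤ ENNReal.ofReal (chordLen K p)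
          - ENNReal.ofReal (s * ((1 - (s⁻¹ - 1) / (T - 1)) * chordLen K p)) :=
          tsub_le_tsub_left hsh _
      _ = ENNReal.ofReal (chordLen K p - s * ((1 - (s⁻¹ - 1) / (T - 1)) * chordLen K p)) :=
          (ENNReal.ofReal_sub _ hnn).symm
      _ = ENNReal.ofReal (chordLen K p * ((1 - s) * T / (T - 1))) := by
          congr 1
          have : T - 1 ≠ 0 := by linarith
          field_simp
          ring

theorem volume_inter_cyl (X : Set ((ℝ × ℝ) × ℝ)) (hX : MeasurableSet X) (M : Set (ℝ × ℝ))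
    (hM : MeasurableSet M) :
    volume (X ∩ M ×ˢ (univ : Set ℝ)) = ∫⁻ p in M, volume (Prod.mk p ⁻¹' X) := by
  have h : volume (X ∩ M ×ˢ (univ : Set ℝ))
      = ((volume : Measure (ℝ × ℝ)).prod (volume : Measure ℝ)) (X ∩ M ×ˢ (univ : Set ℝ)) := rfl
  rw [h, Measure.prod_apply (hX.inter (hM.prod MeasurableSet.univ)), ← lintegral_indicator hM]
  apply lintegral_congr
  intro p
  by_cases hp : p ∈ M
  · rw [indicator_of_mem hp]
    congr 1
    ext z
    simp [hp]
  · rw [indicator_of_notMem hp]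
    have : Prod.mk p ⁻¹' (X ∩ M ×ˢ (univ : Set ℝ)) = ∅ := by
      ext z
      simp [hp]
    rw [this]
    simp

/-- The weighted cylinder bound in product coordinates. -/
theorem cyl_bound (K : Set ((ℝ × ℝ) × ℝ)) (hKc : IsCompact K) (hK : Convex ℝ K)
    (hsym : ∀ x ∈ K, -x ∈ K) (n : ℕ) (s : Fin n → ℝ) (hs0 : ∀ j, 0 < s j) (hs1 : ∀ j, s j ≤ 1)
    (w0 : ℝ) (hw0 : 0 ≤ w0) (w : Fin n → ℝ) (hw : ∀ j, 0 ≤ w j)
    (hA : ∀ T : ℝ, 1 ≤ T →
      w0 + ∑ j, w j * (if s j * T ≤ 1 then 1 else (1 - s j) * T / (T - 1)) ≤ 1 + 1 / (2 * T))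
    (M : Set (ℝ × ℝ)) (hM : MeasurableSet M) :
    volume (Prod.fst '' K) * (ENNReal.ofReal w0 * volume (K ∩ M ×ˢ (univ : Set ℝ))
        + ∑ j, ENNReal.ofReal (w j) * volume ((K \ shrink (s j) K) ∩ M ×ˢ (univ : Set ℝ)))
      ≤ 3 * volume K * volume M := by
  have hKm := hKc.measurableSet
  have hKb := hKc.isBounded
  have hshm : ∀ j, MeasurableSet (K \ shrink (s j) K) :=
    fun j => hKm.diff (shrink_measurable hKc (s j))
  set G : ℝ × ℝ → ENNReal := fun p => ENNReal.ofReal w0 * volume (Prod.mk p ⁻¹' K)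
    + ∑ j, ENNReal.ofReal (w j) * volume (Prod.mk p ⁻¹' (K \ shrink (s j) K)) with hGdef
  have hm0 : Measurable fun p : ℝ × ℝ => volume (Prod.mk p ⁻¹' K) :=
    measurable_measure_prodMk_left hKm
  have hmj : ∀ j, Measurable fun p : ℝ × ℝ => volume (Prod.mk p ⁻¹' (K \ shrink (s j) K)) :=
    fun j => measurable_measure_prodMk_left (hshm j)
  have hGm : Measurable G :=
    (hm0.const_mul _).add (Finset.measurable_sum _ fun j _ => (hmj j).const_mul _)
  have hLHS : ENNReal.ofReal w0 * volume (K ∩ M ×ˢ (univ : Set ℝ))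
        + ∑ j, ENNReal.ofReal (w j) * volume ((K \ shrink (s j) K) ∩ M ×ˢ (univ : Set ℝ))
      = ∫⁻ p in M, G p := by
    rw [hGdef, lintegral_add_left (hm0.const_mul _), lintegral_const_mul _ hm0,
      lintegral_finsetSum _ (fun j _ => (hmj j).const_mul _), volume_inter_cyl K hKm M hM]
    congr 1
    apply Finset.sum_congr rfl
    intro j _
    rw [lintegral_const_mul _ (hmj j), volume_inter_cyl _ (hshm j) M hM]
  have hpt : ∀ p : ℝ × ℝ, p ≠ 0 → volume (Prod.fst '' K) * G p ≤ 3 * volume K := by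
    intro p hp
    by_cases hpD : p ∈ Prod.fst '' K
    · have hDc : IsCompact (Prod.fst '' K) := hKc.image continuous_fst
      have hAcl : IsClosed {t : ℝ | t • p ∈ Prod.fst '' K} :=
        hDc.isClosed.preimage (by fun_prop : Continuous fun t : ℝ => t • p)
      have h1A : (1:ℝ) ∈ {t : ℝ | t • p ∈ Prod.fst '' K} := by
        show (1:ℝ) • p ∈ Prod.fst '' K
        rwa [one_smul]
      have hAbdd : BddAbove {t : ℝ | t • p ∈ Prod.fst '' K} := by
        obtain ⟨R, hR⟩ := hDc.isBounded.exists_norm_le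
        refine ⟨R / ‖p‖, fun t ht => ?_⟩
        have h1 := hR _ ht
        rw [norm_smul, Real.norm_eq_abs] at h1
        have hpn : 0 < ‖p‖ := norm_pos_iff.2 hp
        rw [le_div_iff₀ hpn]
        exact (mul_le_mul_of_nonneg_right (le_abs_self t) hpn.le).trans h1
      have hTA : sSup {t : ℝ | t • p ∈ Prod.fst '' K} ∈ {t : ℝ | t • p ∈ Prod.fst '' K} :=
        hAcl.csSup_mem ⟨1, h1A⟩ hAbdd
      have hTmax : ∀ b : ℝ, b • p ∈ Prod.fst '' K → b ≤ sSup {t : ℝ | t • p ∈ Prod.fst '' K} :=
        fun b hb => le_csSup hAbdd hb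
      have hT1 : 1 ≤ sSup {t : ℝ | t • p ∈ Prod.fst '' K} := hTmax 1 (by rwa [one_smul])
      generalize sSup {t : ℝ | t • p ∈ Prod.fst '' K} = T at hTA hTmax hT1
      have hTD : T • p ∈ Prod.fst '' K := hTA
      have htent := tent K hKc hK hsym p hp T hT1 hTmax
      have h0K : (0 : (ℝ × ℝ) × ℝ) ∈ K := by
        obtain ⟨x, hx, -⟩ := hpD
        exact zero_mem_of_symm hK hsym ⟨x, hx⟩
      have hfib : ∀ j, volume (Prod.mk p ⁻¹' (K \ shrink (s j) K))
          ≤ ENNReal.ofReal (chordLen K p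
            * (if s j * T ≤ 1 then 1 else (1 - s j) * T / (T - 1))) :=
        fun j => fiber_diff_bound K hKc hK h0K p hpD T hT1 hTD (s j) (hs0 j) (hs1 j)
      have hfull : volume (Prod.mk p ⁻¹' K) = ENNReal.ofReal (chordLen K p) :=
        (ENNReal.ofReal_toReal (chord_volume_ne_top hKb p)).symm
      have hβnn : ∀ j, 0 ≤ (if s j * T ≤ 1 then (1:ℝ) else (1 - s j) * T / (T - 1)) := by
        intro j
        split_ifs with h
        · norm_num
        · have h := not_le.1 h
          have : 1 < T := by nlinarith [hs1 j, hs0 j]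
          exact div_nonneg (mul_nonneg (by linarith [hs1 j]) (by linarith)) (by linarith)
      have hLnn := chordLen_nonneg K p
      have hG : G p ≤ ENNReal.ofReal (chordLen K p * (1 + 1 / (2 * T))) := by
        calc G p ≤ ENNReal.ofReal w0 * ENNReal.ofReal (chordLen K p)
              + ∑ j, ENNReal.ofReal (w j) * ENNReal.ofReal (chordLen K p
                * (if s j * T ≤ 1 then 1 else (1 - s j) * T / (T - 1))) := by
              rw [hGdef]
              beta_reduce
              rw [hfull]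
              refine add_le_add le_rfl (Finset.sum_le_sum fun j _ => ?_)
              gcongr
              exact hfib j
          _ = ENNReal.ofReal (chordLen K p * (w0
              + ∑ j, w j * (if s j * T ≤ 1 then 1 else (1 - s j) * T / (T - 1)))) := by
              rw [mul_add, ENNReal.ofReal_add (mul_nonneg hLnn hw0)
                (mul_nonneg hLnn (Finset.sum_nonneg fun j _ => mul_nonneg (hw j) (hβnn j))),
                Finset.mul_sum, ENNReal.ofReal_sum_of_nonneg
                  (fun j _ => mul_nonneg hLnn (mul_nonneg (hw j) (hβnn j)))]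
              congr 1
              · rw [← ENNReal.ofReal_mul hw0]
                congr 1
                ring
              · apply Finset.sum_congr rfl
                intro j _
                rw [← ENNReal.ofReal_mul (hw j)]
                congr 1
                ring
          _ ≤ ENNReal.ofReal (chordLen K p * (1 + 1 / (2 * T))) :=
              ENNReal.ofReal_le_ofReal (mul_le_mul_of_nonneg_left (hA T hT1) hLnn)
      calc volume (Prod.fst '' K) * G p
          ≤ volume (Prod.fst '' K) * ENNReal.ofReal (chordLen K p * (1 + 1 / (2 * T))) := by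
            gcongr
        _ = 3 * (ENNReal.ofReal (chordLen K p * (1 / 3 + 1 / (6 * T)))
              * volume (Prod.fst '' K)) := by
            have e : chordLen K p * (1 + 1 / (2 * T))
                = 3 * (chordLen K p * (1 / 3 + 1 / (6 * T))) := by
              have : T ≠ 0 := by linarith
              field_simp
              ring
            rw [e, ENNReal.ofReal_mul (by norm_num)]
            have e3 : ENNReal.ofReal 3 = 3 := by norm_num
            rw [e3]
            ring
        _ ≤ 3 * volume K := by gcongr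
    · have hempty : Prod.mk p ⁻¹' K = ∅ := by
        ext z
        simp only [mem_preimage, mem_empty_iff_false, iff_false]
        intro hz
        exact hpD ⟨(p, z), hz, rfl⟩
      have hG0 : G p = 0 := by
        rw [hGdef]
        beta_reduce
        simp [hempty]
      rw [hG0]
      simp
  calc volume (Prod.fst '' K) * (ENNReal.ofReal w0 * volume (K ∩ M ×ˢ (univ : Set ℝ))
        + ∑ j, ENNReal.ofReal (w j) * volume ((K \ shrink (s j) K) ∩ M ×ˢ (univ : Set ℝ)))
      = volume (Prod.fst '' K) * ∫⁻ p in M, G p := by rw [hLHS]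
    _ = ∫⁻ p in M, volume (Prod.fst '' K) * G p := (lintegral_const_mul _ hGm).symm
    _ ≤ ∫⁻ _ in M, 3 * volume K := by
        apply lintegral_mono_ae
        have hne : ∀ᵐ p : ℝ × ℝ ∂(volume.restrict M), p ≠ 0 := by
          apply ae_restrict_of_ae
          rw [ae_iff]
          simp
        filter_upwards [hne] with p hp using hpt p hp
    _ = 3 * volume K * volume M := by rw [setLIntegral_const]

end Vale.Agent.Lib.P243.Sym
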