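import Mathlib
import Vale.Agent.Lib.P243.Sym.Fiber

/-!
# Cylinder covers of centrally symmetric convex bodies: the weighted covering bound (P243)

Ambient space `Fin 3 → ℝ`. For a centrally symmetric convex body `K`, levels `0 < s j ≤ 1` and
weights `w0, w j ≥ 0` satisfying the admissibility condition `hA`, every cover of `K` by finitely
many cylinders has directionwise relative base area at least
`(w0 + ∑ j, w j * (1 - s j ^ 3)) / 3`.
-/

open MeasureTheory Set
open scoped Matrix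

namespace Vale.Agent.Lib.P243.Sym

open Vale.Agent.Lib.P243.H19

/-- The weighted cylinder bound in `Fin 3 → ℝ`, for a cylinder given in frame coordinates. -/
theorem cyl_bound_frame (K : Set (Fin 3 → ℝ)) (hKc : IsCompact K) (hK : Convex ℝ K)
    (hsym : ∀ x ∈ K, -x ∈ K) (e f : Fin 3 → ℝ) (hee : e ⬝ᵥ e = 1) (hff : f ⬝ᵥ f = 1)
    (hef : e ⬝ᵥ f = 0)
    (n : ℕ) (s : Fin n → ℝ) (hs0 : ∀ j, 0 < s j) (hs1 : ∀ j, s j ≤ 1)
    (w0 : ℝ) (hw0 : 0 ≤ w0) (w : Fin n → ℝ) (hw : ∀ j, 0 ≤ w j)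
    (hA : ∀ T : ℝ, 1 ≤ T →
      w0 + ∑ j, w j * (if s j * T ≤ 1 then 1 else (1 - s j) * T / (T - 1)) ≤ 1 + 1 / (2 * T))
    (B : Set (ℝ × ℝ)) :
    volume (frameProj e f '' K) * (ENNReal.ofReal w0 * volume (K ∩ frameProj e f ⁻¹' B)
        + ∑ j, ENNReal.ofReal (w j) * volume ((K \ shrink (s j) K) ∩ frameProj e f ⁻¹' B))
      ≤ 3 * volume K * volume B := by
  obtain ⟨κ, hκ0, hκ1, hκ⟩ := frame_scaling e f hee hff hef
  have hΦc : Continuous (frameMap e f) := LinearMap.continuous_of_finiteDimensional _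
  have hinj := frameMap_injective e f hee hff hef
  have hK'c : IsCompact (frameMap e f '' K) := hKc.image hΦc
  have hK'conv : Convex ℝ (frameMap e f '' K) := hK.linear_image (frameMap e f)
  have hK'sym : ∀ y ∈ frameMap e f '' K, -y ∈ frameMap e f '' K := by
    rintro _ ⟨x, hx, rfl⟩
    exact ⟨-x, hsym x hx, by rw [map_neg]⟩
  have hfst : Prod.fst '' (frameMap e f '' K) = frameProj e f '' K := by
    rw [image_image]; rfl
  have hMm : MeasurableSet (toMeasurable volume (B ∩ frameProj e f '' K)) :=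
    measurableSet_toMeasurable _ _
  have hMsub : B ∩ frameProj e f '' K ⊆ toMeasurable volume (B ∩ frameProj e f '' K) :=
    subset_toMeasurable _ _
  have hMvol : volume (toMeasurable volume (B ∩ frameProj e f '' K))
      = volume (B ∩ frameProj e f '' K) := measure_toMeasurable _
  have hsub0 : frameMap e f '' (K ∩ frameProj e f ⁻¹' B)
      ⊆ frameMap e f '' K ∩ toMeasurable volume (B ∩ frameProj e f '' K) ×ˢ (univ : Set ℝ) := by
    rintro _ ⟨x, ⟨hxK, hxB⟩, rfl⟩
    exact ⟨⟨x, hxK, rfl⟩, hMsub ⟨hxB, ⟨x, hxK, rfl⟩⟩, mem_univ _⟩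
  have hsubj : ∀ j, frameMap e f '' ((K \ shrink (s j) K) ∩ frameProj e f ⁻¹' B)
      ⊆ (frameMap e f '' K \ shrink (s j) (frameMap e f '' K))
        ∩ toMeasurable volume (B ∩ frameProj e f '' K) ×ˢ (univ : Set ℝ) := by
    intro j
    rintro _ ⟨x, ⟨⟨hxK, hxs⟩, hxB⟩, rfl⟩
    refine ⟨⟨⟨x, hxK, rfl⟩, ?_⟩, hMsub ⟨hxB, ⟨x, hxK, rfl⟩⟩, mem_univ _⟩
    rintro ⟨x', hx'K, hx'e⟩
    apply hxs
    show (s j)⁻¹ • x ∈ K
    have hx' : x' = (s j)⁻¹ • x := hinj (by rw [hx'e, map_smul])
    rw [← hx']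
    exact hx'K
  have hcyl := cyl_bound (frameMap e f '' K) hK'c hK'conv hK'sym n s hs0 hs1 w0 hw0 w hw hA
    (toMeasurable volume (B ∩ frameProj e f '' K)) hMm
  rw [hfst] at hcyl
  have e1 : ∀ (a : ENNReal) (b : Fin n → ENNReal),
      ENNReal.ofReal w0 * (κ * a) + ∑ j, ENNReal.ofReal (w j) * (κ * b j)
        = κ * (ENNReal.ofReal w0 * a + ∑ j, ENNReal.ofReal (w j) * b j) := by
    intro a b
    rw [mul_add, Finset.mul_sum]
    congr 1
    · ring
    · apply Finset.sum_congr rfl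
      intro j _
      ring
  have h1 : ENNReal.ofReal w0 * volume (K ∩ frameProj e f ⁻¹' B)
        + ∑ j, ENNReal.ofReal (w j) * volume ((K \ shrink (s j) K) ∩ frameProj e f ⁻¹' B)
      ≤ κ * (ENNReal.ofReal w0 * volume (frameMap e f '' K
            ∩ toMeasurable volume (B ∩ frameProj e f '' K) ×ˢ (univ : Set ℝ))
          + ∑ j, ENNReal.ofReal (w j) * volume ((frameMap e f '' K
            \ shrink (s j) (frameMap e f '' K))
            ∩ toMeasurable volume (B ∩ frameProj e f '' K) ×ˢ (univ : Set ℝ))) := by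
    rw [← e1]
    refine add_le_add ?_ (Finset.sum_le_sum fun j _ => ?_)
    · rw [hκ (K ∩ frameProj e f ⁻¹' B)]
      gcongr
    · rw [hκ ((K \ shrink (s j) K) ∩ frameProj e f ⁻¹' B)]
      gcongr
      exact hsubj j
  calc volume (frameProj e f '' K) * (ENNReal.ofReal w0 * volume (K ∩ frameProj e f ⁻¹' B)
        + ∑ j, ENNReal.ofReal (w j) * volume ((K \ shrink (s j) K) ∩ frameProj e f ⁻¹' B))
      ≤ volume (frameProj e f '' K) * (κ * (ENNReal.ofReal w0 * volume (frameMap e f '' K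
            ∩ toMeasurable volume (B ∩ frameProj e f '' K) ×ˢ (univ : Set ℝ))
          + ∑ j, ENNReal.ofReal (w j) * volume ((frameMap e f '' K
            \ shrink (s j) (frameMap e f '' K))
            ∩ toMeasurable volume (B ∩ frameProj e f '' K) ×ˢ (univ : Set ℝ)))) := by
        gcongr
    _ = κ * (volume (frameProj e f '' K) * (ENNReal.ofReal w0 * volume (frameMap e f '' K
            ∩ toMeasurable volume (B ∩ frameProj e f '' K) ×ˢ (univ : Set ℝ))
          + ∑ j, ENNReal.ofReal (w j) * volume ((frameMap e f '' K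
            \ shrink (s j) (frameMap e f '' K))
            ∩ toMeasurable volume (B ∩ frameProj e f '' K) ×ˢ (univ : Set ℝ)))) := by
        rw [mul_left_comm]
    _ ≤ κ * (3 * volume (frameMap e f '' K)
          * volume (toMeasurable volume (B ∩ frameProj e f '' K))) := by
        gcongr
    _ = 3 * (κ * volume (frameMap e f '' K)) * volume (B ∩ frameProj e f '' K) := by
        rw [hMvol]
        ring
    _ ≤ 3 * volume K * volume B := by
        rw [← hκ K]
        gcongr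
        exact inter_subset_left

theorem volume_shrink (K : Set (Fin 3 → ℝ)) (s : ℝ) (hs : 0 < s) :
    volume (shrink s K) = ENNReal.ofReal (s ^ 3) * volume K := by
  have h : shrink s K = (fun x : Fin 3 → ℝ => s⁻¹ • x) ⁻¹' K := rfl
  rw [h, Measure.addHaar_preimage_smul volume (inv_ne_zero hs.ne')]
  congr 2
  have hfr : Module.finrank ℝ (Fin 3 → ℝ) = 3 := by simp
  rw [hfr, inv_pow, inv_inv, abs_of_pos (by positivity)]

/-- The weighted covering bound for centrally symmetric convex bodies. -/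
theorem cover_weighted (K : Set (Fin 3 → ℝ)) (hKc : IsCompact K) (hK : Convex ℝ K)
    (hKi : (interior K).Nonempty) (hsym : ∀ x ∈ K, -x ∈ K)
    (n : ℕ) (s : Fin n → ℝ) (hs0 : ∀ j, 0 < s j) (hs1 : ∀ j, s j ≤ 1)
    (w0 : ℝ) (hw0 : 0 ≤ w0) (w : Fin n → ℝ) (hw : ∀ j, 0 ≤ w j)
    (hA : ∀ T : ℝ, 1 ≤ T →
      w0 + ∑ j, w j * (if s j * T ≤ 1 then 1 else (1 - s j) * T / (T - 1)) ≤ 1 + 1 / (2 * T))
    (m : ℕ) (e f : Fin m → Fin 3 → ℝ)
    (hee : ∀ i, e i ⬝ᵥ e i = 1) (hff : ∀ i, f i ⬝ᵥ f i = 1) (hef : ∀ i, e i ⬝ᵥ f i = 0)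
    (B : Fin m → Set (ℝ × ℝ)) (hcover : K ⊆ ⋃ i, frameProj (e i) (f i) ⁻¹' B i) :
    ENNReal.ofReal ((w0 + ∑ j, w j * (1 - s j ^ 3)) / 3)
      ≤ ∑ i, volume (B i) / volume (frameProj (e i) (f i) '' K) := by
  have hK0 : volume K ≠ 0 :=
    (lt_of_lt_of_le (isOpen_interior.measure_pos volume hKi) (measure_mono interior_subset)).ne'
  have hKtop : volume K ≠ ⊤ := hKc.measure_lt_top.ne
  have hD0 : ∀ i, volume (frameProj (e i) (f i) '' K) ≠ 0 :=
    fun i => shadow_ne_zero K (e i) (f i) (hee i) (hff i) (hef i) hK0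
  have hDtop : ∀ i, volume (frameProj (e i) (f i) '' K) ≠ ⊤ :=
    fun i => shadow_ne_top K hKc (e i) (f i)
  have hcyl : ∀ i, ENNReal.ofReal w0 * volume (K ∩ frameProj (e i) (f i) ⁻¹' B i)
        + ∑ j, ENNReal.ofReal (w j)
          * volume ((K \ shrink (s j) K) ∩ frameProj (e i) (f i) ⁻¹' B i)
      ≤ 3 * volume K * (volume (B i) / volume (frameProj (e i) (f i) '' K)) := by
    intro i
    have h := cyl_bound_frame K hKc hK hsym (e i) (f i) (hee i) (hff i) (hef i) n s hs0 hs1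
      w0 hw0 w hw hA (B i)
    rw [← mul_div_assoc, ENNReal.le_div_iff_mul_le (Or.inl (hD0 i)) (Or.inl (hDtop i)), mul_comm]
    exact h
  have hcov0 : volume K ≤ ∑ i, volume (K ∩ frameProj (e i) (f i) ⁻¹' B i) := by
    calc volume K ≤ volume (⋃ i, K ∩ frameProj (e i) (f i) ⁻¹' B i) := measure_mono (by
            intro x hx
            obtain ⟨i, hi⟩ := mem_iUnion.1 (hcover hx)
            exact mem_iUnion.2 ⟨i, hx, hi⟩)
      _ ≤ ∑ i, volume (K ∩ frameProj (e i) (f i) ⁻¹' B i) := measure_iUnion_fintype_le _ _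
  have hcovj : ∀ j, volume (K \ shrink (s j) K)
      ≤ ∑ i, volume ((K \ shrink (s j) K) ∩ frameProj (e i) (f i) ⁻¹' B i) := by
    intro j
    calc volume (K \ shrink (s j) K)
        ≤ volume (⋃ i, (K \ shrink (s j) K) ∩ frameProj (e i) (f i) ⁻¹' B i) := measure_mono (by
            intro x hx
            obtain ⟨i, hi⟩ := mem_iUnion.1 (hcover hx.1)
            exact mem_iUnion.2 ⟨i, hx, hi⟩)
      _ ≤ ∑ i, volume ((K \ shrink (s j) K) ∩ frameProj (e i) (f i) ⁻¹' B i) :=
          measure_iUnion_fintype_le _ _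
  have hpow : ∀ j, 0 ≤ 1 - s j ^ 3 := by
    intro j
    have := pow_le_one₀ (hs0 j).le (hs1 j) (n := 3)
    linarith
  have hdiffv : ∀ j, ENNReal.ofReal (1 - s j ^ 3) * volume K ≤ volume (K \ shrink (s j) K) := by
    intro j
    calc ENNReal.ofReal (1 - s j ^ 3) * volume K = volume K - volume (shrink (s j) K) := by
          rw [volume_shrink K (s j) (hs0 j), ENNReal.ofReal_sub _ (by have := hs0 j; positivity),
            ENNReal.ofReal_one, ENNReal.sub_mul (fun _ _ => hKtop), one_mul]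
      _ ≤ volume (K \ shrink (s j) K) := le_measure_sdiff
  have hsum : ENNReal.ofReal (w0 + ∑ j, w j * (1 - s j ^ 3)) * volume K
      ≤ ∑ i, (ENNReal.ofReal w0 * volume (K ∩ frameProj (e i) (f i) ⁻¹' B i)
        + ∑ j, ENNReal.ofReal (w j)
          * volume ((K \ shrink (s j) K) ∩ frameProj (e i) (f i) ⁻¹' B i)) := by
    calc ENNReal.ofReal (w0 + ∑ j, w j * (1 - s j ^ 3)) * volume K
        = ENNReal.ofReal w0 * volume K
          + ∑ j, ENNReal.ofReal (w j) * (ENNReal.ofReal (1 - s j ^ 3) * volume K) := by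
          rw [ENNReal.ofReal_add hw0 (Finset.sum_nonneg fun j _ => mul_nonneg (hw j) (hpow j)),
            add_mul, ENNReal.ofReal_sum_of_nonneg (fun j _ => mul_nonneg (hw j) (hpow j)),
            Finset.sum_mul]
          congr 1
          apply Finset.sum_congr rfl
          intro j _
          rw [ENNReal.ofReal_mul (hw j), mul_assoc]
      _ ≤ ENNReal.ofReal w0 * ∑ i, volume (K ∩ frameProj (e i) (f i) ⁻¹' B i)
          + ∑ j, ENNReal.ofReal (w j)
            * ∑ i, volume ((K \ shrink (s j) K) ∩ frameProj (e i) (f i) ⁻¹' B i) := by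
          refine add_le_add ?_ (Finset.sum_le_sum fun j _ => ?_)
          · gcongr
          · gcongr
            exact (hdiffv j).trans (hcovj j)
      _ = ∑ i, (ENNReal.ofReal w0 * volume (K ∩ frameProj (e i) (f i) ⁻¹' B i)
          + ∑ j, ENNReal.ofReal (w j)
            * volume ((K \ shrink (s j) K) ∩ frameProj (e i) (f i) ⁻¹' B i)) := by
          simp only [Finset.sum_add_distrib, Finset.mul_sum]
          congr 1
          exact Finset.sum_comm
  have h3 : ENNReal.ofReal (w0 + ∑ j, w j * (1 - s j ^ 3)) * volume K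
      ≤ 3 * volume K * ∑ i, volume (B i) / volume (frameProj (e i) (f i) '' K) := by
    rw [Finset.mul_sum]
    exact hsum.trans (Finset.sum_le_sum fun i _ => hcyl i)
  have hc : 0 ≤ (w0 + ∑ j, w j * (1 - s j ^ 3)) / 3 :=
    div_nonneg (add_nonneg hw0 (Finset.sum_nonneg fun j _ => mul_nonneg (hw j) (hpow j)))
      (by norm_num)
  have e3 : ENNReal.ofReal (w0 + ∑ j, w j * (1 - s j ^ 3))
      = 3 * ENNReal.ofReal ((w0 + ∑ j, w j * (1 - s j ^ 3)) / 3) := by
    have e4 : (3 : ENNReal) = ENNReal.ofReal 3 := by norm_num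
    rw [e4, ← ENNReal.ofReal_mul (by norm_num)]
    congr 1
    ring
  have h30 : (3 : ENNReal) * volume K ≠ 0 := mul_ne_zero (by norm_num) hK0
  have h3t : (3 : ENNReal) * volume K ≠ ⊤ := ENNReal.mul_ne_top (by norm_num) hKtop
  apply (ENNReal.mul_le_mul_iff_right h30 h3t).1
  calc 3 * volume K * ENNReal.ofReal ((w0 + ∑ j, w j * (1 - s j ^ 3)) / 3)
      = ENNReal.ofReal (w0 + ∑ j, w j * (1 - s j ^ 3)) * volume K := by
        rw [e3]
        ring
    _ ≤ 3 * volume K * ∑ i, volume (B i) / volume (frameProj (e i) (f i) '' K) := h3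

end Vale.Agent.Lib.P243.Sym
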