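import Mathlib
import Vale.Agent.Lib.P243.Sym.Weighted

/-!
# Many levels: the constant `5 / 12` for centrally symmetric convex bodies (P243)

The weighted covering bound `cover_weighted` is applied with the levels `s j = (j + 1) / N`
(`j < N`), the weights `w j = 1 / N` and `w0 = 1 / 2`; this is a Riemann sum for the density
`gauge_K + 1 / 2`. The resulting constant is `5 / 12 - (2 N + 1) / (12 N ^ 2)`, and letting
`N → ∞` gives `5 / 12`.
-/

open MeasureTheory Set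
open scoped Matrix

namespace Vale.Agent.Lib.P243.Sym

open Vale.Agent.Lib.P243.H19

/-- The primitive of the chord weight `x ↦ if x ≤ τ then 1 else (1 - x) / (1 - τ)`. -/
noncomputable def chordPrim (τ x : ℝ) : ℝ :=
  if x ≤ τ then x else τ + ((1 - τ) ^ 2 - (1 - x) ^ 2) / (2 * (1 - τ))

theorem beta_local (τ a b : ℝ) (hab : a ≤ b) (hb1 : b ≤ 1) :
    (if b ≤ τ then 1 else (1 - b) / (1 - τ)) * (b - a) ≤ chordPrim τ b - chordPrim τ a := by
  unfold chordPrim
  by_cases hb : b ≤ τ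
  · have ha : a ≤ τ := hab.trans hb
    rw [if_pos hb, if_pos hb, if_pos ha]
    linarith
  · have hb' := not_le.1 hb
    have hτ : 0 < 1 - τ := by linarith
    have hτne : 1 - τ ≠ 0 := hτ.ne'
    rw [if_neg hb, if_neg hb]
    by_cases ha : a ≤ τ
    · rw [if_pos ha, ← sub_nonneg]
      have e : τ + ((1 - τ) ^ 2 - (1 - b) ^ 2) / (2 * (1 - τ)) - a - (1 - b) / (1 - τ) * (b - a)
          = ((b - τ) ^ 2 + 2 * (τ - a) * (b - τ)) / (2 * (1 - τ)) := by
        field_simp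
        ring
      rw [e]
      have h1 : 0 ≤ (τ - a) * (b - τ) := mul_nonneg (by linarith) (by linarith)
      exact div_nonneg (by nlinarith [sq_nonneg (b - τ)]) (by linarith)
    · rw [if_neg ha, ← sub_nonneg]
      have e : τ + ((1 - τ) ^ 2 - (1 - b) ^ 2) / (2 * (1 - τ))
            - (τ + ((1 - τ) ^ 2 - (1 - a) ^ 2) / (2 * (1 - τ))) - (1 - b) / (1 - τ) * (b - a)
          = (b - a) ^ 2 / (2 * (1 - τ)) := by
        field_simp
        ring
      rw [e]
      exact div_nonneg (sq_nonneg _) (by linarith)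

theorem beta_sum (N : ℕ) (hN : 0 < N) (τ : ℝ) (hτ0 : 0 ≤ τ) (hτ1 : τ ≤ 1) :
    ∑ j ∈ Finset.range N, (1 / (N:ℝ))
        * (if ((j:ℝ) + 1) / N ≤ τ then 1 else (1 - ((j:ℝ) + 1) / N) / (1 - τ))
      ≤ (1 + τ) / 2 := by
  have hN' : (0:ℝ) < N := by exact_mod_cast hN
  calc ∑ j ∈ Finset.range N, (1 / (N:ℝ))
        * (if ((j:ℝ) + 1) / N ≤ τ then 1 else (1 - ((j:ℝ) + 1) / N) / (1 - τ))
      ≤ ∑ j ∈ Finset.range N,
          (chordPrim τ (((j + 1 : ℕ) : ℝ) / N) - chordPrim τ ((j : ℝ) / N)) := by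
        apply Finset.sum_le_sum
        intro j hj
        have hj' : (j : ℝ) + 1 ≤ N := by
          have := Finset.mem_range.1 hj
          exact_mod_cast this
        have h := beta_local τ ((j:ℝ) / N) (((j:ℝ) + 1) / N)
          (by gcongr; linarith) (by rw [div_le_one hN']; exact hj')
        have e : ((j:ℝ) + 1) / N - (j:ℝ) / N = 1 / N := by
          field_simp
          ring
        rw [e] at h
        push_cast
        rw [mul_comm]
        exact h
    _ = chordPrim τ ((N : ℝ) / N) - chordPrim τ (((0:ℕ) : ℝ) / N) :=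
        Finset.sum_range_sub (fun j => chordPrim τ ((j : ℝ) / N)) N
    _ ≤ (1 + τ) / 2 := by
        rw [div_self hN'.ne']
        simp only [Nat.cast_zero, zero_div]
        unfold chordPrim
        rw [if_pos hτ0]
        split_ifs with h
        · have : τ = 1 := le_antisymm hτ1 h
          rw [this]
          norm_num
        · have h' := not_le.1 h
          have hne : (1 - τ) ≠ 0 := by linarith
          have e : τ + ((1 - τ) ^ 2 - (1 - 1) ^ 2) / (2 * (1 - τ)) - 0 = (1 + τ) / 2 := by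
            field_simp
            ring
          rw [e]

theorem levels_admissible (N : ℕ) (hN : 0 < N) (T : ℝ) (hT : 1 ≤ T) :
    (1 / 2 : ℝ) + ∑ j : Fin N, (1 / (N:ℝ))
        * (if (((j : ℕ) : ℝ) + 1) / N * T ≤ 1 then 1
            else (1 - (((j : ℕ) : ℝ) + 1) / N) * T / (T - 1))
      ≤ 1 + 1 / (2 * T) := by
  have hT0 : 0 < T := by linarith
  have hN' : (0:ℝ) < N := by exact_mod_cast hN
  rw [Fin.sum_univ_eq_sum_range (fun j : ℕ => (1 / (N:ℝ))
    * (if ((j : ℝ) + 1) / N * T ≤ 1 then 1 else (1 - ((j : ℝ) + 1) / N) * T / (T - 1))) N]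
  have hτ0 : 0 ≤ 1 / T := by positivity
  have hτ1 : 1 / T ≤ 1 := by
    rw [div_le_one hT0]
    exact hT
  have h := beta_sum N hN (1 / T) hτ0 hτ1
  have hconv : ∀ j ∈ Finset.range N, (1 / (N:ℝ))
        * (if ((j : ℝ) + 1) / N * T ≤ 1 then 1 else (1 - ((j : ℝ) + 1) / N) * T / (T - 1))
      = (1 / (N:ℝ))
        * (if ((j:ℝ) + 1) / N ≤ 1 / T then 1 else (1 - ((j:ℝ) + 1) / N) / (1 - 1 / T)) := by
    intro j hj
    congr 1
    have hiff : ((j : ℝ) + 1) / N * T ≤ 1 ↔ ((j:ℝ) + 1) / N ≤ 1 / T := by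
      rw [le_div_iff₀ hT0]
    by_cases hc : ((j : ℝ) + 1) / N * T ≤ 1
    · rw [if_pos hc, if_pos (hiff.1 hc)]
    · rw [if_neg hc, if_neg (fun h => hc (hiff.2 h))]
      have hc' := not_le.1 hc
      have hj1 : ((j : ℝ) + 1) / N ≤ 1 := by
        rw [div_le_one hN']
        have := Finset.mem_range.1 hj
        exact_mod_cast this
      have hT1 : 1 < T := by nlinarith
      have hne : T - 1 ≠ 0 := by linarith
      field_simp
  rw [Finset.sum_congr rfl hconv]
  have e : 1 + 1 / (2 * T) = 1 / 2 + (1 + 1 / T) / 2 := by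
    field_simp
    ring
  rw [e]
  linarith

theorem cube_sum (N : ℝ) (n : ℕ) :
    ∑ j ∈ Finset.range n, (1 - (((j:ℝ) + 1) / N) ^ 3)
      = n - ((n:ℝ) * (n + 1) / 2) ^ 2 / N ^ 3 := by
  induction n with
  | zero => simp
  | succ k ih =>
    rw [Finset.sum_range_succ, ih]
    push_cast
    ring

theorem levels_const (N : ℕ) (hN : 0 < N) :
    (1 / 2 + ∑ j : Fin N, (1 / (N:ℝ)) * (1 - ((((j : ℕ) : ℝ) + 1) / N) ^ 3)) / 3
      = 5 / 12 - (2 * (N:ℝ) + 1) / (12 * N ^ 2) := by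
  have hN' : (0:ℝ) < N := by exact_mod_cast hN
  rw [Fin.sum_univ_eq_sum_range (fun j : ℕ => (1 / (N:ℝ)) * (1 - (((j : ℝ) + 1) / N) ^ 3)) N,
    ← Finset.mul_sum, cube_sum]
  field_simp
  ring

/-- The covering bound with `N` levels. -/
theorem cover_levels (K : Set (Fin 3 → ℝ)) (hKc : IsCompact K) (hK : Convex ℝ K)
    (hKi : (interior K).Nonempty) (hsym : ∀ x ∈ K, -x ∈ K)
    (N : ℕ) (hN : 0 < N) (m : ℕ) (e f : Fin m → Fin 3 → ℝ)
    (hee : ∀ i, e i ⬝ᵥ e i = 1) (hff : ∀ i, f i ⬝ᵥ f i = 1) (hef : ∀ i, e i ⬝ᵥ f i = 0)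
    (B : Fin m → Set (ℝ × ℝ)) (hcover : K ⊆ ⋃ i, frameProj (e i) (f i) ⁻¹' B i) :
    ENNReal.ofReal (5 / 12 - (2 * (N:ℝ) + 1) / (12 * N ^ 2))
      ≤ ∑ i, volume (B i) / volume (frameProj (e i) (f i) '' K) := by
  have hN' : (0:ℝ) < N := by exact_mod_cast hN
  have h := cover_weighted K hKc hK hKi hsym N (fun j => (((j : ℕ) : ℝ) + 1) / N)
    (fun j => by positivity)
    (fun j => by
      rw [div_le_one hN']
      have := j.2
      exact_mod_cast this)
    (1 / 2) (by norm_num) (fun _ => 1 / (N:ℝ)) (fun _ => by positivity)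
    (fun T hT => levels_admissible N hN T hT) m e f hee hff hef B hcover
  rw [levels_const N hN] at h
  exact h

/-- The covering bound `5 / 12` for centrally symmetric convex bodies. -/
theorem cover_sharp (K : Set (Fin 3 → ℝ)) (hKc : IsCompact K) (hK : Convex ℝ K)
    (hKi : (interior K).Nonempty) (hsym : ∀ x ∈ K, -x ∈ K)
    (m : ℕ) (e f : Fin m → Fin 3 → ℝ)
    (hee : ∀ i, e i ⬝ᵥ e i = 1) (hff : ∀ i, f i ⬝ᵥ f i = 1) (hef : ∀ i, e i ⬝ᵥ f i = 0)
    (B : Fin m → Set (ℝ × ℝ)) (hcover : K ⊆ ⋃ i, frameProj (e i) (f i) ⁻¹' B i) :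
    ENNReal.ofReal (5 / 12)
      ≤ ∑ i, volume (B i) / volume (frameProj (e i) (f i) '' K) := by
  by_contra hcon
  have hlt := not_le.1 hcon
  have hRtop : ∑ i, volume (B i) / volume (frameProj (e i) (f i) '' K) ≠ ⊤ := ne_top_of_lt hlt
  have hr : (∑ i, volume (B i) / volume (frameProj (e i) (f i) '' K)).toReal < 5 / 12 :=
    (ENNReal.lt_ofReal_iff_toReal_lt hRtop).1 hlt
  obtain ⟨n, hn⟩ := exists_nat_one_div_lt (show (0:ℝ)
    < 4 * (5 / 12 - (∑ i, volume (B i) / volume (frameProj (e i) (f i) '' K)).toReal) by linarith)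
  have h := cover_levels K hKc hK hKi hsym (n + 1) (Nat.succ_pos n) m e f hee hff hef B hcover
  have h2 := (ENNReal.ofReal_le_iff_le_toReal hRtop).1 h
  have hN1 : (1:ℝ) ≤ ((n + 1 : ℕ) : ℝ) := by
    push_cast
    linarith [Nat.cast_nonneg (α := ℝ) n]
  have h3 : (2 * ((n + 1 : ℕ) : ℝ) + 1) / (12 * ((n + 1 : ℕ) : ℝ) ^ 2)
      ≤ 1 / (4 * ((n + 1 : ℕ) : ℝ)) := by
    rw [div_le_div_iff₀ (by positivity) (by positivity)]
    nlinarith
  have h4 : 1 / (4 * ((n + 1 : ℕ) : ℝ))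
      < 5 / 12 - (∑ i, volume (B i) / volume (frameProj (e i) (f i) '' K)).toReal := by
    push_cast
    have e4 : 1 / (4 * ((n:ℝ) + 1)) = (1 / ((n:ℝ) + 1)) / 4 := by
      field_simp
    rw [e4]
    linarith
  linarith

end Vale.Agent.Lib.P243.Sym
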